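import Mathlib
import Vale.Agent.P096.Final

open Vale.Agent.P096

universe u

theorem Vale.Agent.Results.P096.UniformIffPointwise.result :
    (∀ ε > 0, ∃ δ > 0, ∀ (K : Type u) [NormedAddCommGroup K] [InnerProductSpace ℂ K]
      [CompleteSpace K] (M N : VonNeumannAlgebra K), kkDist M N < δ → CloseConj M N ε) ↔
    (∀ (K : Type u) [NormedAddCommGroup K] [InnerProductSpace ℂ K] [CompleteSpace K]
      (M : VonNeumannAlgebra K), ∀ ε > 0, ∃ δ > 0, ∀ N : VonNeumannAlgebra K,
        kkDist M N < δ → CloseConj M N ε) := by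
  constructor
  · intro h K _ _ _ M ε hε
    obtain ⟨δ, hδ, hh⟩ := h ε hε
    exact ⟨δ, hδ, fun N hd => hh K M N hd⟩
  · intro h
    exact uniform_of_pointwise h
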